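import Vale.Agent.Lib.P340.Compact

namespace Vale.Agent.Results.P340.FiniteRestriction

open Vale.Agent.Lib.P340

universe u

/-- Compactness for the Barendregt-Geuvers-Klop conjecture: a weakly normalizing pure type system
which is not strongly normalizing has a restriction to finitely many sorts (with the axioms and
rules among these sorts) which is again weakly normalizing and not strongly normalizing. -/
theorem result {S : Type u} (P : PTS S) (hWN : P.WN) (hSN : ¬ P.SN) :
    ∃ (n : ℕ) (e : Fin n → S), Function.Injective e ∧ (P.comap e).WN ∧ ¬ (P.comap e).SN :=
  exists_finite_restriction P hWN hSN

end Vale.Agent.Results.P340.FiniteRestriction
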